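import Vale.Agent.P032.Model

namespace Vale.Agent.P032

theorem bridge (K : Subfield ℝ) (n : ℕ) (c : K × K → Fin n)
    (hc : ∀ p q : K × K, (p.1 - q.1) ^ 2 + (p.2 - q.2) ^ 2 = 1 → c p ≠ c q) :
    (planeGraph K).Colorable n := by
  refine ⟨SimpleGraph.Coloring.mk
    (fun p => c (⟨(p : EuclideanSpace ℝ (Fin 2)) 0, p.2 0⟩, ⟨(p : EuclideanSpace ℝ (Fin 2)) 1, p.2 1⟩)) ?_⟩
  intro p q h
  apply hc
  have h1 : dist (p : EuclideanSpace ℝ (Fin 2)) q = 1 := h
  rw [EuclideanSpace.dist_eq] at h1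
  have h2 : ∑ i : Fin 2, dist ((p : EuclideanSpace ℝ (Fin 2)) i) ((q : EuclideanSpace ℝ (Fin 2)) i) ^ 2
      = 1 := by
    have := congrArg (· ^ 2) h1
    simp only at this
    rwa [Real.sq_sqrt (by positivity), one_pow] at this
  rw [Fin.sum_univ_two] at h2
  simp only [Real.dist_eq, sq_abs] at h2
  apply Subtype.ext
  push_cast
  exact h2

end Vale.Agent.P032
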