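import Vale.Agent.P032.Model

namespace Vale.Agent.P032

/-- colouring a group from a colouring of a quotient of a subgroup -/
theorem color {K : Type*} [AddCommGroup K] (A : AddSubgroup K) {Z : Type*} [AddCommGroup Z]
    (ρ : A →+ Z) {n : ℕ} (χ : Z → Fin n) (S : Set Z) (hχ : ∀ z w, z - w ∈ S → χ z ≠ χ w) :
    ∃ c : K → Fin n, ∀ a b (h : a - b ∈ A), ρ ⟨a - b, h⟩ ∈ S → c a ≠ c b := by
  classical
  have hout : ∀ a : K, a - (Quotient.out (QuotientAddGroup.mk a : K ⧸ A)) ∈ A := by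
    intro a
    have h1 : (QuotientAddGroup.mk (Quotient.out (QuotientAddGroup.mk a : K ⧸ A)) : K ⧸ A)
        = QuotientAddGroup.mk a := Quotient.out_eq' _
    rw [QuotientAddGroup.eq] at h1
    rwa [neg_add_eq_sub] at h1
  refine ⟨fun a => χ (ρ ⟨_, hout a⟩), ?_⟩
  intro a b h hS
  have hab : (QuotientAddGroup.mk a : K ⧸ A) = QuotientAddGroup.mk b := by
    rw [QuotientAddGroup.eq]
    have := A.neg_mem h
    rwa [neg_sub, ← neg_add_eq_sub] at this
  apply hχ
  have : ρ ⟨_, hout a⟩ - ρ ⟨_, hout b⟩ = ρ ⟨a - b, h⟩ := by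
    rw [← map_sub]
    congr 1
    apply Subtype.ext
    simp only [AddSubgroup.coe_sub, hab]
    abel
  rw [this]
  exact hS

end Vale.Agent.P032
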