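import Vale.Agent.P032.Model

/-! P032, CONJ: colouring from a conjugation-invariant valuation on `K(i)`. -/

namespace Vale.Agent.P032

/-- CONJ: a conjugation-invariant valuation on `K(i)` with residue field of at most `q` elements -/
theorem conj_val (K : Subfield ℝ) (L : Subfield ℂ) (hL : ∀ z : ℂ, z ∈ L ↔ z.re ∈ K ∧ z.im ∈ K)
    {Γ₀ : Type*} [LinearOrderedCommGroupWithZero Γ₀] (w : Valuation L Γ₀)
    (hw : ∀ z z' : L, (z' : ℂ) = (starRingEnd ℂ) (z : ℂ) → w z' = w z) (q : ℕ) (r : Fin q → L)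
    (hres : ∀ z : L, w z ≤ 1 → ∃ i, w (z - r i) < 1) :
    ∃ c : K × K → Fin q, ∀ P Q : K × K,
      (P.1 - Q.1) ^ 2 + (P.2 - Q.2) ^ 2 = 1 → c P ≠ c Q := by
  classical
  -- the complex number attached to a point
  have hmem : ∀ P : K × K, (⟨(P.1 : ℝ), (P.2 : ℝ)⟩ : ℂ) ∈ L := fun P =>
    (hL _).mpr ⟨P.1.2, P.2.2⟩
  let z : K × K → L := fun P => ⟨⟨(P.1 : ℝ), (P.2 : ℝ)⟩, hmem P⟩
  -- unit vectors have valuation one
  have hunit : ∀ P Q : K × K, (P.1 - Q.1) ^ 2 + (P.2 - Q.2) ^ 2 = 1 → w (z P - z Q) = 1 := by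
    intro P Q h
    have hR : ((P.1 : ℝ) - Q.1) ^ 2 + ((P.2 : ℝ) - Q.2) ^ 2 = 1 := by
      have := congrArg (fun x : K => (x : ℝ)) h
      simpa using this
    have hm : (starRingEnd ℂ) ((z P - z Q : L) : ℂ) ∈ L := by
      rw [hL]
      have h1 := (hL _).mp (z P - z Q).2
      refine ⟨by rw [Complex.conj_re]; exact h1.1, ?_⟩
      rw [Complex.conj_im]
      exact K.neg_mem h1.2
    have h1 : w ⟨_, hm⟩ = w (z P - z Q) := hw (z P - z Q) ⟨_, hm⟩ rfl
    have h2 : (z P - z Q) * ⟨_, hm⟩ = (1 : L) := by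
      apply Subtype.ext
      show ((z P - z Q : L) : ℂ) * (starRingEnd ℂ) ((z P - z Q : L) : ℂ) = 1
      rw [Complex.mul_conj]
      have h3 : Complex.normSq ((z P - z Q : L) : ℂ) = 1 := by
        have h4 : ((z P - z Q : L) : ℂ) = ⟨(P.1 : ℝ) - Q.1, (P.2 : ℝ) - Q.2⟩ := by
          show ((z P : ℂ) - (z Q : ℂ)) = _
          rfl
        rw [h4, Complex.normSq_mk]
        nlinarith [hR]
      rw [h3]
      simp
    have h5 : w (z P - z Q) * w (z P - z Q) = 1 := by
      nth_rewrite 2 [← h1]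
      rw [← map_mul, h2, map_one]
    rw [← sq] at h5
    exact (pow_eq_one_iff_of_nonneg zero_le (by norm_num)).mp h5
  -- cosets of the valuation ring
  let A : AddSubgroup L :=
    { carrier := {x | w x ≤ 1}
      zero_mem' := by simp
      add_mem' := fun {a b} ha hb => (w.map_add a b).trans (max_le ha hb)
      neg_mem' := fun {a} ha => by
        show w (-a) ≤ 1
        rw [Valuation.map_neg]
        exact ha }
  let σ : L → L := fun x => Quotient.out (QuotientAddGroup.mk x : L ⧸ A)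
  have hσ : ∀ x, w (x - σ x) ≤ 1 := by
    intro x
    have h1 : (QuotientAddGroup.mk (σ x) : L ⧸ A) = QuotientAddGroup.mk x := Quotient.out_eq _
    have h2 : -(σ x) + x ∈ A := QuotientAddGroup.eq.mp h1
    have h3 : x - σ x ∈ A := by
      rw [sub_eq_add_neg, add_comm]
      exact h2
    exact h3
  have hσ' : ∀ x y, w (x - y) ≤ 1 → σ x = σ y := by
    intro x y h
    have h1 : (QuotientAddGroup.mk y : L ⧸ A) = QuotientAddGroup.mk x := by
      rw [QuotientAddGroup.eq]
      show w (-y + x) ≤ 1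
      rwa [neg_add_eq_sub]
    show Quotient.out (QuotientAddGroup.mk x : L ⧸ A) = Quotient.out (QuotientAddGroup.mk y : L ⧸ A)
    rw [h1]
  choose f hf using fun x : L => hres (x - σ x) (hσ x)
  refine ⟨fun P => f (z P), fun P Q h hc => ?_⟩
  have h1 := hunit P Q h
  have h2 : σ (z P) = σ (z Q) := hσ' _ _ h1.le
  have h3 := hf (z P)
  have h4 := hf (z Q)
  simp only at hc
  rw [hc, h2] at h3
  have h5 : z P - z Q = (z P - σ (z Q) - r (f (z Q))) - (z Q - σ (z Q) - r (f (z Q))) := by ring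
  have h6 : w (z P - z Q) < 1 := by
    rw [h5]
    exact (w.map_sub _ _).trans_lt (max_lt h3 h4)
  rw [h1] at h6
  exact lt_irrefl _ h6

end Vale.Agent.P032
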