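import Vale.Agent.P032.Model

/-! P032, row DEC: the finite checks modulo 3, 7 and 11. -/

namespace Vale.Agent.P032

/-- Modulo 3: the map `a + b` and three colours. -/
theorem dec3 : ∃ (t : ℤ) (S : Set (ZMod 3)) (χ : ZMod 3 → Fin 3),
    (∀ a b : ZMod 3, a ^ 2 + b ^ 2 = 1 → a + t * b ∈ S) ∧ ∀ z w, z - w ∈ S → χ z ≠ χ w := by
  have h1 : ∀ a b : ZMod 3, a ^ 2 + b ^ 2 = 1 → (a + 1 * b = 1 ∨ a + 1 * b = 2) := by decide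
  have h2 : ∀ z w : Fin 3, (z - w = 1 ∨ z - w = 2) → z ≠ w := by decide
  refine ⟨1, {z | z = 1 ∨ z = 2}, fun z => z, fun a b h => ?_, fun z w h => h2 z w h⟩
  rw [Int.cast_one]
  exact h1 a b h

/-- Modulo 7: the map `a + 2 b` and four colours. -/
theorem dec7 : ∃ (t : ℤ) (S : Set (ZMod 7)) (χ : ZMod 7 → Fin 4),
    (∀ a b : ZMod 7, a ^ 2 + b ^ 2 = 1 → a + t * b ∈ S) ∧ ∀ z w, z - w ∈ S → χ z ≠ χ w := by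
  have h1 : ∀ a b : ZMod 7, a ^ 2 + b ^ 2 = 1 →
      (a + 2 * b = 1 ∨ a + 2 * b = 2 ∨ a + 2 * b = 5 ∨ a + 2 * b = 6) := by decide
  have h2 : ∀ z w : Fin 7, (z - w = 1 ∨ z - w = 2 ∨ z - w = 5 ∨ z - w = 6) →
      (![0, 1, 2, 0, 1, 2, 3] : Fin 7 → Fin 4) z ≠ (![0, 1, 2, 0, 1, 2, 3] : Fin 7 → Fin 4) w := by
    decide
  refine ⟨2, {z | z = 1 ∨ z = 2 ∨ z = 5 ∨ z = 6},
    (![0, 1, 2, 0, 1, 2, 3] : Fin 7 → Fin 4), fun a b h => ?_, fun z w h => h2 z w h⟩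
  have e : ((2 : ℤ) : ZMod 7) = 2 := by norm_num
  rw [e]
  exact h1 a b h

/-- Modulo 11: the map `a + 3 b` and six colours. -/
theorem dec11 : ∃ (t : ℤ) (S : Set (ZMod 11)) (χ : ZMod 11 → Fin 6),
    (∀ a b : ZMod 11, a ^ 2 + b ^ 2 = 1 → a + t * b ∈ S) ∧ ∀ z w, z - w ∈ S → χ z ≠ χ w := by
  have h1 : ∀ a b : ZMod 11, a ^ 2 + b ^ 2 = 1 →
      (a + 3 * b = 1 ∨ a + 3 * b = 3 ∨ a + 3 * b = 4 ∨ a + 3 * b = 7 ∨ a + 3 * b = 8 ∨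
        a + 3 * b = 10) := by decide
  have h2 : ∀ z w : Fin 11,
      (z - w = 1 ∨ z - w = 3 ∨ z - w = 4 ∨ z - w = 7 ∨ z - w = 8 ∨ z - w = 10) →
      (![0, 1, 0, 1, 2, 3, 2, 3, 4, 5, 4] : Fin 11 → Fin 6) z ≠
        (![0, 1, 0, 1, 2, 3, 2, 3, 4, 5, 4] : Fin 11 → Fin 6) w := by decide
  refine ⟨3, {z | z = 1 ∨ z = 3 ∨ z = 4 ∨ z = 7 ∨ z = 8 ∨ z = 10},
    (![0, 1, 0, 1, 2, 3, 2, 3, 4, 5, 4] : Fin 11 → Fin 6), fun a b h => ?_, fun z w h => h2 z w h⟩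
  have e : ((3 : ℤ) : ZMod 11) = 3 := by norm_num
  rw [e]
  exact h1 a b h

end Vale.Agent.P032
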