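import Mathlib

/-! P032: a proper 5-colouring of the unit-distance graph of `F_11²`. -/

namespace Vale.Agent.P032

/-- base-5 digits: the colours of the 121 points -/
def T11 : ℕ := 286574314758210382576648403309797690265638979493908484790968348417631439633045746535

/-- the colour of a point of `F_11²` -/
def col11 (z : ZMod 11 × ZMod 11) : Fin 5 :=
  ⟨(T11 / 5 ^ (11 * z.1.val + z.2.val)) % 5, Nat.mod_lt _ (by norm_num)⟩

theorem check11 : ∀ a < 11, ∀ b < 11, ∀ u < 11, ∀ w < 11, (u * u + w * w) % 11 = 1 →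
    (T11 / 5 ^ (11 * ((a + u) % 11) + (b + w) % 11)) % 5 ≠ (T11 / 5 ^ (11 * a + b)) % 5 := by
  decide +kernel

theorem dec11b (z w : ZMod 11 × ZMod 11) (h : (z.1 - w.1) ^ 2 + (z.2 - w.2) ^ 2 = 1) :
    col11 z ≠ col11 w := by
  intro he
  have hv := congrArg Fin.val he
  have h1 := check11 w.1.val (ZMod.val_lt _) w.2.val (ZMod.val_lt _) (z.1 - w.1).val
    (ZMod.val_lt _) (z.2 - w.2).val (ZMod.val_lt _) (by
      have h2 := congrArg ZMod.val h
      rw [ZMod.val_add, sq, sq, ZMod.val_mul, ZMod.val_mul, ← Nat.add_mod] at h2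
      exact h2)
  rw [← ZMod.val_add, ← ZMod.val_add, add_sub_cancel, add_sub_cancel] at h1
  exact h1 hv

end Vale.Agent.P032
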