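import Vale.Agent.P032.Dec

/-! P032: a proper 5-colouring of the unit-distance graph of `F_19²`, and the linear ones. -/

namespace Vale.Agent.P032

/-- base-5 digits: the colours of the 19 residues -/
def T19 : ℕ := 17995890991305

/-- the colour of a point of `F_19²` -/
def col19 (z : ZMod 19 × ZMod 19) : Fin 5 :=
  ⟨(T19 / 5 ^ (z.1 + z.2).val) % 5, Nat.mod_lt _ (by norm_num)⟩

theorem check19 : ∀ a < 19, ∀ u < 19, ∀ w < 19, (u * u + w * w) % 19 = 1 →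
    (T19 / 5 ^ ((a + (u + w) % 19) % 19)) % 5 ≠ (T19 / 5 ^ a) % 5 := by
  decide +kernel

theorem dec19 (z w : ZMod 19 × ZMod 19) (h : (z.1 - w.1) ^ 2 + (z.2 - w.2) ^ 2 = 1) :
    col19 z ≠ col19 w := by
  intro he
  have hv := congrArg Fin.val he
  have h1 := check19 (w.1 + w.2).val (ZMod.val_lt _) (z.1 - w.1).val
    (ZMod.val_lt _) (z.2 - w.2).val (ZMod.val_lt _) (by
      have h2 := congrArg ZMod.val h
      rw [ZMod.val_add, sq, sq, ZMod.val_mul, ZMod.val_mul, ← Nat.add_mod] at h2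
      exact h2)
  rw [← ZMod.val_add, ← ZMod.val_add] at h1
  have h3 : w.1 + w.2 + (z.1 - w.1 + (z.2 - w.2)) = z.1 + z.2 := by ring
  rw [h3] at h1
  exact h1 hv

/-- linear colourings as colourings of the plane over `F_p` -/
theorem lin (p n : ℕ) (h : ∃ (t : ℤ) (S : Set (ZMod p)) (χ : ZMod p → Fin n),
    (∀ a b : ZMod p, a ^ 2 + b ^ 2 = 1 → a + t * b ∈ S) ∧ ∀ z w, z - w ∈ S → χ z ≠ χ w) :
    ∃ χ : ZMod p × ZMod p → Fin n, ∀ z w : ZMod p × ZMod p,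
      (z.1 - w.1) ^ 2 + (z.2 - w.2) ^ 2 = 1 → χ z ≠ χ w := by
  obtain ⟨t, S, χ, h1, h2⟩ := h
  refine ⟨fun z => χ (z.1 + t * z.2), fun z w hzw => h2 _ _ ?_⟩
  have h3 := h1 _ _ hzw
  have h4 : z.1 + t * z.2 - (w.1 + t * w.2) = z.1 - w.1 + t * (z.2 - w.2) := by ring
  rw [h4]; exact h3

end Vale.Agent.P032
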