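import Vale.Agent.P032.Model

/-! P032, row DYAD: dyadic valuations with `v 2` of odd order. -/

namespace Vale.Agent.P032

section
variable {K : Type*} [Field K] {Γ₀ : Type*} [LinearOrderedCommGroupWithZero Γ₀]
  (v : Valuation K Γ₀)

/-- If the valuation of `2` is less than one and not a square, every unit vector `(x, y)` has
`x + y` congruent to one. -/
theorem dyad (h2 : v 2 < 1) (h2' : ¬ IsSquare (v 2)) (x y : K) (h : x ^ 2 + y ^ 2 = 1) :
    v (x + y - 1) < 1 := by
  obtain ⟨s, hs⟩ : ∃ s, s = x + y := ⟨_, rfl⟩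
  rw [← hs]
  have key : (1 : K) = (s ^ 2 + 2 * y ^ 2) + -(2 * s * y) := by
    rw [hs]; linear_combination -h
  have h20 : v 2 ≠ 0 := fun h0 => h2' (by rw [h0]; exact ⟨0, by simp⟩)
  have hne : v (s ^ 2) ≠ v (2 * y ^ 2) := by
    intro he
    rw [map_mul, map_pow, map_pow] at he
    by_cases hy : v y = 0
    · have hs0 : v s = 0 := by
        rw [hy] at he
        have : v s ^ 2 = 0 := by simpa using he
        exact pow_eq_zero_iff (two_ne_zero) |>.1 this
      have hy0 : y = 0 := (v.zero_iff).1 hy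
      have hs00 : s = 0 := (v.zero_iff).1 hs0
      rw [hy0, hs00] at key
      simp at key
    · apply h2'
      refine ⟨v s * (v y)⁻¹, ?_⟩
      have : v 2 = v s ^ 2 * (v y ^ 2)⁻¹ := by
        rw [he, mul_assoc, mul_inv_cancel₀ (pow_ne_zero 2 hy), mul_one]
      rw [this, sq, sq, mul_inv]
      exact mul_mul_mul_comm _ _ _ _
  have hsum : v (s ^ 2 + 2 * y ^ 2) = max (v (s ^ 2)) (v (2 * y ^ 2)) :=
    v.map_add_of_distinct_val hne
  have hMpos : 0 < max (v (s ^ 2)) (v (2 * y ^ 2)) := by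
    rcases lt_or_gt_of_ne hne with hlt | hlt
    · exact lt_of_le_of_lt zero_le' (lt_of_lt_of_le hlt (le_max_right _ _))
    · exact lt_of_le_of_lt zero_le' (lt_of_lt_of_le hlt (le_max_left _ _))
  have hsq : v (2 * s * y) ^ 2 < max (v (s ^ 2)) (v (2 * y ^ 2)) ^ 2 := by
    have e : v (2 * s * y) ^ 2 = v 2 * (v (s ^ 2) * v (2 * y ^ 2)) := by
      simp only [map_mul, map_pow]
      rw [mul_pow, mul_pow, sq (v 2)]
      simp only [mul_assoc, mul_left_comm]
    rw [e]
    by_cases h0 : v (s ^ 2) * v (2 * y ^ 2) = 0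
    · rw [h0, mul_zero]
      exact pow_pos hMpos 2
    · calc v 2 * (v (s ^ 2) * v (2 * y ^ 2)) < 1 * (v (s ^ 2) * v (2 * y ^ 2)) :=
            mul_lt_mul_of_pos_right h2 (zero_lt_iff.2 h0)
        _ = v (s ^ 2) * v (2 * y ^ 2) := one_mul _
        _ ≤ max (v (s ^ 2)) (v (2 * y ^ 2)) * max (v (s ^ 2)) (v (2 * y ^ 2)) :=
            mul_le_mul' (le_max_left _ _) (le_max_right _ _)
        _ = max (v (s ^ 2)) (v (2 * y ^ 2)) ^ 2 := (sq _).symm
  have hlt : v (2 * s * y) < max (v (s ^ 2)) (v (2 * y ^ 2)) :=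
    lt_of_pow_lt_pow_left₀ 2 zero_le' hsq
  have hone : (1 : Γ₀) = max (v (s ^ 2)) (v (2 * y ^ 2)) := by
    have h1 : v ((s ^ 2 + 2 * y ^ 2) + -(2 * s * y)) = v (s ^ 2 + 2 * y ^ 2) := by
      apply v.map_add_eq_of_lt_left
      rw [v.map_neg, hsum]
      exact hlt
    rw [← hsum, ← h1, ← key, map_one]
  rw [← hone] at hlt
  have hB : v (2 * y ^ 2) < 1 := by
    refine lt_of_le_of_ne (by rw [hone]; exact le_max_right _ _) ?_
    intro he
    apply h2'
    rw [map_mul, map_pow] at he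
    have hy : v y ≠ 0 := by
      intro h0
      rw [h0] at he
      simp at he
    refine ⟨(v y)⁻¹, ?_⟩
    have : v 2 = (v y ^ 2)⁻¹ := eq_inv_of_mul_eq_one_left he
    rw [this, sq, mul_inv]
  have hprod : v ((s - 1) * (s + 1)) < 1 := by
    have e : (s - 1) * (s + 1) = 2 * s * y + -(2 * y ^ 2) := by linear_combination -key
    rw [e]
    exact v.map_add_lt hlt (by rwa [v.map_neg])
  by_contra hcon
  rw [not_lt] at hcon
  have hplus : v (s + 1) = v (s - 1) := by
    have e : s + 1 = (s - 1) + 2 := by ring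
    rw [e]
    exact v.map_add_eq_of_lt_left (lt_of_lt_of_le h2 hcon)
  rw [map_mul, hplus] at hprod
  exact absurd hprod (not_lt.2 (one_le_mul hcon hcon))

end

end Vale.Agent.P032
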