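import Mathlib

/-! P032, NF: a number field of odd degree has a prime above `2` of odd ramification index. -/

namespace Vale.Agent.P032

open NumberField IsDedekindDomain UniqueFactorizationMonoid WithZero

theorem nf (K : Type*) [Field K] [NumberField K] (h : Odd (Module.finrank ℚ K)) :
    ∃ v : Valuation K (WithZero (Multiplicative ℤ)), v 2 < 1 ∧ ¬ IsSquare (v 2) := by
  classical
  have h2 : (2 : 𝓞 K) ≠ 0 := two_ne_zero
  have hI : Ideal.span {(2 : 𝓞 K)} ≠ 0 := Submodule.span_singleton_eq_bot.mp.mt h2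
  have hnorm : Ideal.absNorm (Ideal.span {(2 : 𝓞 K)}) = 2 ^ Module.finrank ℚ K := by
    rw [Ideal.absNorm_span_singleton]
    have h3 : (2 : 𝓞 K) = algebraMap ℤ (𝓞 K) 2 := by simp
    rw [h3, Algebra.norm_algebraMap, Int.natAbs_pow, RingOfIntegers.rank]
    rfl
  -- some prime factor has odd multiplicity
  have hex : ∃ P ∈ normalizedFactors (Ideal.span {(2 : 𝓞 K)}),
      ¬ 2 ∣ Multiset.count P (normalizedFactors (Ideal.span {(2 : 𝓞 K)})) := by
    by_contra hcon
    push Not at hcon
    obtain ⟨u, hu⟩ := Multiset.exists_smul_of_dvd_count _ hcon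
    have h5 : Ideal.span {(2 : 𝓞 K)} = u.prod ^ 2 := by
      rw [← Multiset.prod_nsmul, ← hu]
      exact (associated_iff_eq.mp (prod_normalizedFactors hI)).symm
    rw [h5, map_pow] at hnorm
    have h6 : (Ideal.absNorm u.prod ^ 2).factorization 2 = (2 ^ Module.finrank ℚ K).factorization 2 := by
      rw [hnorm]
    rw [Nat.factorization_pow, Nat.Prime.factorization_pow Nat.prime_two] at h6
    simp at h6
    rw [← h6] at h
    exact (Nat.not_odd_iff_even.mpr (even_two_mul _)) h
  obtain ⟨P, hP, hodd⟩ := hex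
  have hPp : Prime P := prime_of_normalized_factor P hP
  let w : HeightOneSpectrum (𝓞 K) := ⟨P, Ideal.isPrime_of_prime hPp, hPp.ne_zero⟩
  have hw : w.valuation K (2 : K) = exp (-(Multiset.count P (normalizedFactors
      (Ideal.span {(2 : 𝓞 K)})) : ℤ)) := by
    have h3 : (2 : K) = algebraMap (𝓞 K) K 2 := (map_ofNat (algebraMap (𝓞 K) K) 2).symm
    rw [h3, HeightOneSpectrum.valuation_of_algebraMap,
      HeightOneSpectrum.intValuation_if_neg _ h2, exp_inj, neg_inj, Int.natCast_inj,
      ← Ideal.count_associates_factors_eq hI w.isPrime w.ne_bot]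
  refine ⟨w.valuation K, ?_, ?_⟩
  · rw [hw, ← exp_zero, exp_lt_exp]
    have := Multiset.count_pos.mpr hP
    omega
  · rintro ⟨r, hr⟩
    rw [hw] at hr
    have hr0 : r ≠ 0 := by
      rintro rfl
      simp at hr
    rw [← exp_log hr0, ← exp_add, exp_inj] at hr
    apply hodd
    omega

end Vale.Agent.P032
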