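import Vale.Agent.P032.Model

/-! P032, rows INT and INTEG: integers of positive valuation; unit vectors are integral. -/

namespace Vale.Agent.P032

section
variable {K : Type*} [Field K] {Γ₀ : Type*} [LinearOrderedCommGroupWithZero Γ₀]
  (v : Valuation K Γ₀)

/-- Integers have valuation at most one. -/
theorem IntAux.int_le (n : ℤ) : v (n : K) ≤ 1 :=
  (Valuation.mem_integer_iff v _).1 (intCast_mem v.integer n)

/-- Rational integers of valuation less than one are divisible by `p`. -/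
theorem int_lt (p : ℕ) [Fact p.Prime] (hp : v (p : K) < 1) (n : ℤ) (h : v (n : K) < 1) :
    (n : ZMod p) = 0 := by
  by_contra hn
  have hnd : ¬ (p : ℤ) ∣ n := fun hd => hn ((ZMod.intCast_zmod_eq_zero_iff_dvd n p).2 hd)
  have hpp : Prime (p : ℤ) := Nat.prime_iff_prime_int.1 (Fact.out : p.Prime)
  have hcop : IsCoprime (p : ℤ) n := (hpp.coprime_iff_not_dvd).2 hnd
  obtain ⟨a, b, hab⟩ := hcop
  have e : (1 : K) = (a : K) * (p : K) + (b : K) * (n : K) := by
    have := congrArg (fun z : ℤ => (z : K)) hab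
    push_cast at this
    exact this.symm
  have hlt : v (1 : K) < 1 := by
    rw [e]
    apply v.map_add_lt
    · rw [map_mul]
      exact lt_of_le_of_lt (mul_le_mul' (IntAux.int_le v a) le_rfl) (by rwa [one_mul])
    · rw [map_mul]
      exact lt_of_le_of_lt (mul_le_mul' (IntAux.int_le v b) le_rfl) (by rwa [one_mul])
  rw [map_one] at hlt
  exact lt_irrefl _ hlt

/-- One half of the integrality. -/
theorem IntAux.half (p : ℕ) [Fact p.Prime] (hp : v (p : K) < 1)
    (hres : ∀ z : K, v z ≤ 1 → ∃ n : ℤ, v (z - n) < 1) (hsq : ¬ IsSquare (-1 : ZMod p))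
    (x y : K) (h : x ^ 2 + y ^ 2 = 1) : v y ≤ 1 := by
  by_contra hy
  rw [not_le] at hy
  have hy0 : y ≠ 0 := by
    rintro rfl
    rw [map_zero] at hy
    exact absurd hy (not_lt.2 zero_le')
  obtain ⟨u, hu⟩ : ∃ u, u = x / y := ⟨_, rfl⟩
  have hxy : x = u * y := by rw [hu, div_mul_cancel₀ _ hy0]
  have e : u ^ 2 + 1 = (y ^ 2)⁻¹ := by
    apply eq_inv_of_mul_eq_one_left
    rw [hxy] at h
    linear_combination h
  have hlt : v (u ^ 2 + 1) < 1 := by
    rw [e, map_inv₀, map_pow]
    exact inv_lt_one_of_one_lt₀ (one_lt_pow₀ hy two_ne_zero)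
  have hu1 : v u ≤ 1 := by
    by_contra hc
    rw [not_le] at hc
    have h1 : 1 < v (u ^ 2) := by
      rw [map_pow]
      exact one_lt_pow₀ hc two_ne_zero
    have h2 : v (u ^ 2 + 1) = v (u ^ 2) := by
      apply v.map_add_eq_of_lt_left
      rw [map_one]
      exact h1
    rw [h2] at hlt
    exact absurd hlt (not_lt.2 h1.le)
  obtain ⟨n, hn⟩ := hres u hu1
  have hn2 : v (((n ^ 2 + 1 : ℤ)) : K) < 1 := by
    have e2 : (((n ^ 2 + 1 : ℤ)) : K) = (u ^ 2 + 1) + -((u - n) * (u + n)) := by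
      push_cast
      ring
    rw [e2]
    apply v.map_add_lt hlt
    rw [v.map_neg, map_mul]
    have h3 : v (u + n) ≤ 1 := v.map_add_le hu1 (IntAux.int_le v n)
    calc v (u - n) * v (u + n) ≤ v (u - n) * 1 := mul_le_mul' le_rfl h3
      _ = v (u - n) := mul_one _
      _ < 1 := hn
  have h0 := int_lt v p hp _ hn2
  apply hsq
  refine ⟨(n : ZMod p), ?_⟩
  push_cast at h0
  linear_combination -h0

/-- Unit vectors are integral when `-1` is not a square modulo `p` and the residue field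
is `F_p`. -/
theorem integral (p : ℕ) [Fact p.Prime] (hp : v (p : K) < 1)
    (hres : ∀ z : K, v z ≤ 1 → ∃ n : ℤ, v (z - n) < 1) (hsq : ¬ IsSquare (-1 : ZMod p))
    (x y : K) (h : x ^ 2 + y ^ 2 = 1) : v x ≤ 1 ∧ v y ≤ 1 :=
  ⟨IntAux.half v p hp hres hsq y x (by rw [add_comm]; exact h),
    IntAux.half v p hp hres hsq x y h⟩

end

end Vale.Agent.P032
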