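import Vale.Agent.P032.Color
import Vale.Agent.P032.Int

namespace Vale.Agent.P032

variable {K : Type*} [Field K] {Γ₀ : Type*} [LinearOrderedCommGroupWithZero Γ₀]
  (v : Valuation K Γ₀)

theorem red_v_int_le (n : ℤ) : v (n : K) ≤ 1 := by
  have hnat : ∀ m : ℕ, v (m : K) ≤ 1 := by
    intro m
    induction m with
    | zero => simp
    | succ m ih =>
      push_cast
      exact (v.map_add _ _).trans (max_le ih (by simp))
  rcases Int.eq_nat_or_neg n with ⟨m, rfl | rfl⟩
  · exact_mod_cast hnat m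
  · push_cast
    rw [Valuation.map_neg]
    exact hnat m

/-- colourings from places with residue field `F_p`, from a colouring of `F_p²` -/
theorem oddp2 (p : ℕ) [Fact p.Prime] (hp : v (p : K) < 1)
    (hres : ∀ z : K, v z ≤ 1 → ∃ n : ℤ, v (z - n) < 1) (hsq : ¬ IsSquare (-1 : ZMod p))
    {n : ℕ} (χ : ZMod p × ZMod p → Fin n)
    (hχ : ∀ z w, (z.1 - w.1) ^ 2 + (z.2 - w.2) ^ 2 = 1 → χ z ≠ χ w) :
    ∃ c : K × K → Fin n, ∀ P Q : K × K,
      (P.1 - Q.1) ^ 2 + (P.2 - Q.2) ^ 2 = 1 → c P ≠ c Q := by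
  classical
  let A : AddSubgroup (K × K) :=
    { carrier := {z | v z.1 ≤ 1 ∧ v z.2 ≤ 1}
      zero_mem' := by simp
      add_mem' := fun {a b} ha hb => ⟨(v.map_add _ _).trans (max_le ha.1 hb.1),
        (v.map_add _ _).trans (max_le ha.2 hb.2)⟩
      neg_mem' := fun {a} ha => by
        refine ⟨?_, ?_⟩
        · rw [Prod.fst_neg, Valuation.map_neg]; exact ha.1
        · rw [Prod.snd_neg, Valuation.map_neg]; exact ha.2 }
  have hA : ∀ z : K × K, z ∈ A ↔ (v z.1 ≤ 1 ∧ v z.2 ≤ 1) := fun z => Iff.rfl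
  choose! f hf using hres
  have huniq : ∀ (z : K) (m : ℤ), v z ≤ 1 → v (z - m) < 1 → (f z : ZMod p) = m := by
    intro z m hz hm
    have h1 : v (((f z - m : ℤ)) : K) < 1 := by
      have h2 : (((f z - m : ℤ)) : K) = (z - m) - (z - f z) := by push_cast; ring
      rw [h2]
      exact (v.map_sub _ _).trans_lt (max_lt hm (hf z hz))
    have h3 := int_lt v p hp _ h1
    push_cast at h3
    exact sub_eq_zero.1 h3
  have hadd : ∀ a b : K, v a ≤ 1 → v b ≤ 1 → (f (a + b) : ZMod p) = f a + f b := by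
    intro a b ha hb
    have := huniq (a + b) (f a + f b) ((v.map_add _ _).trans (max_le ha hb)) (by
      have h2 : (a + b) - ((f a + f b : ℤ) : K) = (a - f a) + (b - f b) := by
        push_cast; ring
      rw [h2]
      exact (v.map_add _ _).trans_lt (max_lt (hf a ha) (hf b hb)))
    rw [this]; push_cast; rfl
  let ρ : A →+ ZMod p × ZMod p :=
    AddMonoidHom.mk' (fun z => ((f (z : K × K).1 : ZMod p), (f (z : K × K).2 : ZMod p))) (by
      intro a b
      have ha := (hA _).1 a.2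
      have hb := (hA _).1 b.2
      exact Prod.ext (hadd _ _ ha.1 hb.1) (hadd _ _ ha.2 hb.2))
  obtain ⟨c, hc⟩ := color A ρ χ {z | z.1 ^ 2 + z.2 ^ 2 = 1} (fun z w h => hχ z w h)
  refine ⟨c, ?_⟩
  intro P Q hPQ
  obtain ⟨h1, h2⟩ := integral v p hp (fun z hz => ⟨f z, hf z hz⟩) hsq _ _ hPQ
  refine hc P Q ⟨h1, h2⟩ ?_
  show (f (P.1 - Q.1) : ZMod p) ^ 2 + (f (P.2 - Q.2) : ZMod p) ^ 2 = 1
  set x := P.1 - Q.1 with hx
  set y := P.2 - Q.2 with hy
  have ha := hf x h1
  have hb := hf y h2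
  set a := f x
  set b := f y
  have h4 : v (((a ^ 2 + b ^ 2 - 1 : ℤ)) : K) < 1 := by
    have h5 : (((a ^ 2 + b ^ 2 - 1 : ℤ)) : K)
        = -((x - a) * (x + a)) + -((y - b) * (y + b)) := by
      push_cast
      linear_combination hPQ
    rw [h5]
    refine (v.map_add _ _).trans_lt (max_lt ?_ ?_)
    · rw [Valuation.map_neg, map_mul]
      exact (mul_le_of_le_one_right' ((v.map_add _ _).trans
        (max_le h1 (red_v_int_le v a)))).trans_lt ha
    · rw [Valuation.map_neg, map_mul]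
      exact (mul_le_of_le_one_right' ((v.map_add _ _).trans
        (max_le h2 (red_v_int_le v b)))).trans_lt hb
  have h6 := int_lt v p hp _ h4
  push_cast at h6
  exact sub_eq_zero.1 h6

end Vale.Agent.P032
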