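import Vale.Agent.P032.Color
import Vale.Agent.P032.Bridge

namespace Vale.Agent.P032

open IsLocalRing

theorem mem_of_unit_vector {K : Type*} [Field K] (A : ValuationSubring K)
    (hsq : ¬ IsSquare (-1 : ResidueField A)) (x y : K) (h : x ^ 2 + y ^ 2 = 1) : x ∈ A := by
  by_contra hx
  have hx0 : x ≠ 0 := by rintro rfl; exact hx A.zero_mem
  have ha : x⁻¹ ∈ A := (A.mem_or_inv_mem x).resolve_left hx
  set u := y * x⁻¹ with hu
  have hu2 : u ^ 2 = (x⁻¹) ^ 2 - 1 := by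
    rw [hu]; field_simp; linear_combination h
  have hu2A : u ^ 2 ∈ A := by
    rw [hu2]; exact A.sub_mem (A.pow_mem ha 2) A.one_mem
  have huA : u ∈ A := by
    by_contra hn
    have hu0 : u ≠ 0 := by rintro h0; rw [h0] at hn; exact hn A.zero_mem
    have h1 : u⁻¹ ∈ A := (A.mem_or_inv_mem u).resolve_left hn
    apply hn
    have h2 := A.mul_mem _ _ hu2A h1
    have h3 : u ^ 2 * u⁻¹ = u := by field_simp
    rwa [h3] at h2
  apply hsq
  refine ⟨residue A ⟨u, huA⟩, ?_⟩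
  have hnu : ¬ IsUnit (⟨x⁻¹, ha⟩ : A) := by
    intro hun
    obtain ⟨b, hb⟩ := hun.exists_right_inv
    apply hx
    have h1 : x⁻¹ * (b : K) = 1 := by
      have := congrArg (fun z : A => (z : K)) hb
      simpa using this
    have h2 : (b : K) = x := by
      field_simp at h1
      exact h1
    rw [← h2]; exact b.2
  have h0 : residue A ⟨x⁻¹, ha⟩ = 0 := by
    rw [residue_eq_zero_iff]
    exact (mem_maximalIdeal _).2 hnu
  have h4 : (⟨u, huA⟩ : A) * ⟨u, huA⟩ = ⟨x⁻¹, ha⟩ * ⟨x⁻¹, ha⟩ - 1 := by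
    apply Subtype.ext
    push_cast
    rw [← sq, ← sq]; exact hu2
  rw [← map_mul, h4, map_sub, map_mul, h0, map_one]
  ring

/-- the unit-distance graph of `K²` maps to the one of the residue plane -/
theorem transfer (K : Subfield ℝ) (A : ValuationSubring K)
    (hsq : ¬ IsSquare (-1 : ResidueField A)) (n : ℕ)
    (hn : (fieldGraph (ResidueField A)).Colorable n) : (planeGraph K).Colorable n := by
  obtain ⟨χ⟩ := hn
  let B : AddSubgroup (K × K) :=
    { carrier := {z | z.1 ∈ A ∧ z.2 ∈ A}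
      zero_mem' := ⟨A.zero_mem, A.zero_mem⟩
      add_mem' := fun {a b} ha hb => ⟨A.add_mem _ _ ha.1 hb.1, A.add_mem _ _ ha.2 hb.2⟩
      neg_mem' := fun {a} ha => ⟨A.neg_mem _ ha.1, A.neg_mem _ ha.2⟩ }
  let ρ : B →+ ResidueField A × ResidueField A :=
    AddMonoidHom.mk' (fun z => (residue A ⟨(z : K × K).1, z.2.1⟩, residue A ⟨(z : K × K).2, z.2.2⟩))
      (by
        intro a b
        refine Prod.ext ?_ ?_
        · exact map_add (residue A) ⟨(a : K × K).1, a.2.1⟩ ⟨(b : K × K).1, b.2.1⟩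
        · exact map_add (residue A) ⟨(a : K × K).2, a.2.2⟩ ⟨(b : K × K).2, b.2.2⟩)
  obtain ⟨c, hc⟩ := color B ρ (fun z => χ z) {z | z.1 ^ 2 + z.2 ^ 2 = 1}
    (fun z w h => χ.valid h)
  refine bridge K n c (fun P Q hPQ => ?_)
  have h1 := mem_of_unit_vector A hsq _ _ hPQ
  have h2 := mem_of_unit_vector A hsq (P.2 - Q.2) (P.1 - Q.1) (by rw [add_comm]; exact hPQ)
  refine hc P Q ⟨h1, h2⟩ ?_
  show residue A ⟨P.1 - Q.1, h1⟩ ^ 2 + residue A ⟨P.2 - Q.2, h2⟩ ^ 2 = 1
  rw [← map_pow, ← map_pow, ← map_add, ← map_one (residue A)]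
  congr 1
  exact Subtype.ext hPQ

end Vale.Agent.P032
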