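import Vale.Agent.P032.Two
import Vale.Agent.P032.Red
import Vale.Agent.P032.Dec19
import Vale.Agent.P032.Dec11
import Vale.Agent.P032.Bridge
import Vale.Agent.P032.NF
import Vale.Agent.P032.Conj
import Vale.Agent.P032.Transfer

namespace Vale.Agent.P032

instance fact19 : Fact (Nat.Prime 19) := ⟨by norm_num⟩
instance fact11 : Fact (Nat.Prime 11) := ⟨by norm_num⟩
instance fact7 : Fact (Nat.Prime 7) := ⟨by norm_num⟩

theorem nsq3 : ¬ IsSquare (-1 : ZMod 3) := by decide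
theorem nsq7 : ¬ IsSquare (-1 : ZMod 7) := by decide
theorem nsq11 : ¬ IsSquare (-1 : ZMod 11) := by decide
theorem nsq19 : ¬ IsSquare (-1 : ZMod 19) := by decide

section
variable (K : Subfield ℝ) {Γ₀ : Type*} [LinearOrderedCommGroupWithZero Γ₀] (v : Valuation K Γ₀)

theorem col_two (h2 : v 2 < 1) (h2' : ¬ IsSquare (v 2)) : (planeGraph K).Colorable 2 := by
  obtain ⟨c, hc⟩ := two v h2 h2'
  exact bridge K 2 c hc

theorem col_p (p n : ℕ) [Fact p.Prime] (hp : v (p : K) < 1)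
    (hres : ∀ z : K, v z ≤ 1 → ∃ n : ℤ, v (z - n) < 1) (hsq : ¬ IsSquare (-1 : ZMod p))
    (h : ∃ χ : ZMod p × ZMod p → Fin n, ∀ z w : ZMod p × ZMod p,
      (z.1 - w.1) ^ 2 + (z.2 - w.2) ^ 2 = 1 → χ z ≠ χ w) : (planeGraph K).Colorable n := by
  obtain ⟨χ, hχ⟩ := h
  obtain ⟨c, hc⟩ := oddp2 v p hp hres hsq χ hχ
  exact bridge K n c hc
end

theorem col_nf (K : Subfield ℝ) [FiniteDimensional ℚ K] (h : Odd (Module.finrank ℚ K)) :
    (planeGraph K).Colorable 2 := by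
  have : NumberField K := ⟨⟩
  obtain ⟨v, h1, h2⟩ := nf K h
  exact col_two K v h1 h2

end Vale.Agent.P032
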