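import Mathlib

/-! P032: the unit-distance graph on points with coordinates in a subfield of `ℝ`. -/

namespace Vale.Agent.P032

/-- The unit-distance graph on the points of the plane with both coordinates in `K`. -/
def planeGraph (K : Subfield ℝ) :
    SimpleGraph {p : EuclideanSpace ℝ (Fin 2) // ∀ i, p i ∈ K} where
  Adj p q := dist (p : EuclideanSpace ℝ (Fin 2)) q = 1
  symm := ⟨fun p q h => by rw [dist_comm]; exact h⟩
  loopless := ⟨fun p h => by simp at h⟩

/-- The unit-distance graph of the plane over a field `k`: `z ~ w` when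
`(z₁ - w₁)² + (z₂ - w₂)² = 1`. -/
def fieldGraph (k : Type*) [Field k] : SimpleGraph (k × k) where
  Adj z w := (z.1 - w.1) ^ 2 + (z.2 - w.2) ^ 2 = 1
  symm := ⟨fun z w h => by rw [← h]; ring⟩
  loopless := ⟨fun z h => by simp at h⟩

end Vale.Agent.P032
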