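import Vale.Agent.P032.Color
import Vale.Agent.P032.Dyad

namespace Vale.Agent.P032

variable {K : Type*} [Field K] {Γ₀ : Type*} [LinearOrderedCommGroupWithZero Γ₀]
  (v : Valuation K Γ₀)

/-- two colours of a field with a valuation `v 2 < 1`: `a ≡ b + 1` get different colours -/
theorem parity (h2 : v 2 < 1) :
    ∃ c : K → Fin 2, ∀ a b : K, v (a - b - 1) < 1 → c a ≠ c b := by
  classical
  have key : ∀ z : K, ¬ (v z < 1 ∧ v (z - 1) < 1) := by
    rintro z ⟨h3, h4⟩
    have h5 : v (1 : K) < 1 := by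
      have : (1 : K) = z - (z - 1) := by ring
      rw [this]
      exact (v.map_sub _ _).trans_lt (max_lt h3 h4)
    simp at h5
  let A : AddSubgroup K :=
    { carrier := {z | v z < 1 ∨ v (z - 1) < 1}
      zero_mem' := by left; simp
      add_mem' := by
        intro a b ha hb
        rcases ha with ha | ha <;> rcases hb with hb | hb
        · left; exact (v.map_add _ _).trans_lt (max_lt ha hb)
        · right
          have : a + b - 1 = a + (b - 1) := by ring
          rw [this]; exact (v.map_add _ _).trans_lt (max_lt ha hb)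
        · right
          have : a + b - 1 = (a - 1) + b := by ring
          rw [this]; exact (v.map_add _ _).trans_lt (max_lt ha hb)
        · left
          have : a + b = (a - 1) + (b - 1) + 2 := by ring
          rw [this]
          exact (v.map_add _ _).trans_lt (max_lt ((v.map_add _ _).trans_lt (max_lt ha hb)) h2)
      neg_mem' := by
        intro a ha
        rcases ha with ha | ha
        · left; rw [Valuation.map_neg]; exact ha
        · right
          have : -a - 1 = -((a - 1) + 2) := by ring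
          rw [this, Valuation.map_neg]
          exact (v.map_add _ _).trans_lt (max_lt ha h2) }
  have hA : ∀ z : K, z ∈ A ↔ (v z < 1 ∨ v (z - 1) < 1) := fun z => Iff.rfl
  let ρ : A →+ ZMod 2 := AddMonoidHom.mk' (fun z => if v (z : K) < 1 then 0 else 1) (by
    intro a b
    have ha := (hA _).1 a.2
    have hb := (hA _).1 b.2
    have key' : ∀ z : K, v (z - 1) < 1 → ¬ v z < 1 := fun z h3 h4 => key z ⟨h4, h3⟩
    rcases ha with ha | ha <;> rcases hb with hb | hb
    · have h3 : v (((a + b : A)) : K) < 1 := (v.map_add _ _).trans_lt (max_lt ha hb)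
      simp only [if_pos ha, if_pos hb, if_pos h3]; rfl
    · have h3 : ¬ v (((a + b : A)) : K) < 1 := key' _ (by
        have : (((a + b : A)) : K) - 1 = a + ((b : K) - 1) := by push_cast; ring
        rw [this]; exact (v.map_add _ _).trans_lt (max_lt ha hb))
      simp only [if_pos ha, if_neg (key' _ hb), if_neg h3]; rfl
    · have h3 : ¬ v (((a + b : A)) : K) < 1 := key' _ (by
        have : (((a + b : A)) : K) - 1 = ((a : K) - 1) + b := by push_cast; ring
        rw [this]; exact (v.map_add _ _).trans_lt (max_lt ha hb))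
      simp only [if_neg (key' _ ha), if_pos hb, if_neg h3]; rfl
    · have h3 : v (((a + b : A)) : K) < 1 := by
        have : (((a + b : A)) : K) = ((a : K) - 1) + ((b : K) - 1) + 2 := by push_cast; ring
        rw [this]
        exact (v.map_add _ _).trans_lt (max_lt ((v.map_add _ _).trans_lt (max_lt ha hb)) h2)
      simp only [if_neg (key' _ ha), if_neg (key' _ hb), if_pos h3]; rfl)
  obtain ⟨c, hc⟩ := color (n := 2) A ρ (fun z : ZMod 2 => z) {1} (by
    intro z w h1 h3
    rw [Set.mem_singleton_iff] at h1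
    rw [h3, sub_self] at h1
    exact absurd h1 (by decide))
  refine ⟨c, fun a b h3 => ?_⟩
  have hmem : a - b ∈ A := by rw [hA]; right; exact h3
  refine hc _ _ hmem ?_
  rw [Set.mem_singleton_iff]
  show (if v (a - b) < 1 then (0 : ZMod 2) else 1) = 1
  rw [if_neg]
  intro h4
  exact key _ ⟨h4, h3⟩

/-- two colours from an odd dyadic place -/
theorem two (h2 : v 2 < 1) (h2' : ¬ IsSquare (v 2)) :
    ∃ c : K × K → Fin 2, ∀ P Q : K × K,
      (P.1 - Q.1) ^ 2 + (P.2 - Q.2) ^ 2 = 1 → c P ≠ c Q := by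
  obtain ⟨c, hc⟩ := parity v h2
  refine ⟨fun P => c (P.1 + P.2), fun P Q hPQ => hc _ _ ?_⟩
  have h3 := dyad v h2 h2' _ _ hPQ
  have hd : (P.1 + P.2) - (Q.1 + Q.2) - 1 = (P.1 - Q.1) + (P.2 - Q.2) - 1 := by ring
  rw [hd]; exact h3

/-- two colours from a conjugation-invariant dyadic valuation on `K(i)` for which conjugation acts
trivially on the residue field -/
theorem rami (K : Subfield ℝ) (L : Subfield ℂ) (hL : ∀ z : ℂ, z ∈ L ↔ z.re ∈ K ∧ z.im ∈ K)
    {Γ₀ : Type*} [LinearOrderedCommGroupWithZero Γ₀] (w : Valuation L Γ₀)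
    (hw : ∀ z z' : L, (z' : ℂ) = (starRingEnd ℂ) (z : ℂ) → w z' = w z) (h2 : w 2 < 1)
    (hres : ∀ z z' : L, (z' : ℂ) = (starRingEnd ℂ) (z : ℂ) → w z ≤ 1 → w (z - z') < 1) :
    ∃ c : K × K → Fin 2, ∀ P Q : K × K,
      (P.1 - Q.1) ^ 2 + (P.2 - Q.2) ^ 2 = 1 → c P ≠ c Q := by
  obtain ⟨c, hc⟩ := parity w h2
  have hmem : ∀ P : K × K, (⟨(P.1 : ℝ), (P.2 : ℝ)⟩ : ℂ) ∈ L := fun P =>
    (hL _).mpr ⟨P.1.2, P.2.2⟩
  let z : K × K → L := fun P => ⟨⟨(P.1 : ℝ), (P.2 : ℝ)⟩, hmem P⟩
  refine ⟨fun P => c (z P), fun P Q h => hc _ _ ?_⟩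
  have hR : ((P.1 : ℝ) - Q.1) ^ 2 + ((P.2 : ℝ) - Q.2) ^ 2 = 1 := by
    have := congrArg (fun x : K => (x : ℝ)) h
    simpa using this
  have hm : (starRingEnd ℂ) ((z P - z Q : L) : ℂ) ∈ L := by
    rw [hL]
    have h1 := (hL _).mp (z P - z Q).2
    refine ⟨by rw [Complex.conj_re]; exact h1.1, ?_⟩
    rw [Complex.conj_im]
    exact K.neg_mem h1.2
  set a : L := z P - z Q with ha
  set b : L := ⟨_, hm⟩ with hb
  have h1 : w b = w a := hw a b rfl
  have hab : a * b = 1 := by
    apply Subtype.ext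
    show ((a : L) : ℂ) * (starRingEnd ℂ) ((a : L) : ℂ) = 1
    rw [Complex.mul_conj]
    have h3 : Complex.normSq ((a : L) : ℂ) = 1 := by
      have h4 : ((a : L) : ℂ) = ⟨(P.1 : ℝ) - Q.1, (P.2 : ℝ) - Q.2⟩ := by
        show ((z P : ℂ) - (z Q : ℂ)) = _
        rfl
      rw [h4, Complex.normSq_mk]
      nlinarith [hR]
    rw [h3]
    simp
  have hw1 : w a = 1 := by
    have h5 : w a * w a = 1 := by
      nth_rewrite 2 [← h1]
      rw [← map_mul, hab, map_one]
    rw [← sq] at h5
    exact (pow_eq_one_iff_of_nonneg zero_le (by norm_num)).mp h5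
  have h6 := hres a b rfl hw1.le
  have h7 : w ((a - 1) ^ 2) < 1 := by
    have h8 : (a - 1) ^ 2 = a * (a - b) - 2 * (a - 1) := by linear_combination hab
    rw [h8]
    refine (w.map_sub _ _).trans_lt (max_lt ?_ ?_)
    · rw [map_mul, hw1, one_mul]; exact h6
    · rw [map_mul]
      have h9 : w (a - 1) ≤ 1 := (w.map_sub _ _).trans (max_le hw1.le (by simp))
      exact (mul_le_of_le_one_right' h9).trans_lt h2
  rw [map_pow] at h7
  by_contra hcon
  rw [not_lt] at hcon
  exact absurd h7 (not_lt.2 (one_le_pow₀ hcon))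

end Vale.Agent.P032
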